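import Mathlib.Combinatorics.SimpleGraph.Metric
import Mathlib.Tactic
import Vale.Agent.P192.R2.H360.R.Defs

/-! P192 row R5a (selection of a segment of a geodesic), helper342. -/

namespace Vale.Agent.P192.R2.H342

open SimpleGraph

universe u

/-- ends of the edges which leave or enter `D` -/
def fbG {X : Type u} (Γ : SimpleGraph X) (D : Set X) : Set X :=
  {z | ∃ z', Γ.Adj z z' ∧ ((z ∈ D ∧ z' ∉ D) ∨ (z ∉ D ∧ z' ∈ D))}

theorem cross {X : Type u} (Γ : SimpleGraph X) (y : ℕ → X) (L : ℕ)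
    (hadj : ∀ i < L, Γ.Adj (y i) (y (i + 1))) (D : Set X) (i : ℕ) :
    ∀ j, i ≤ j → j ≤ L → ((y i ∈ D ∧ y j ∉ D) ∨ (y i ∉ D ∧ y j ∈ D)) →
      ∃ t, i ≤ t ∧ t ≤ j ∧ y t ∈ fbG Γ D := by
  intro j hij
  induction j, hij using Nat.le_induction with
  | base => intro _ h; tauto
  | succ j hij ih =>
    intro hj h
    by_cases hs : (y i ∈ D ∧ y j ∉ D) ∨ (y i ∉ D ∧ y j ∈ D)
    · obtain ⟨t, h1, h2, h3⟩ := ih (by omega) hs
      exact ⟨t, h1, by omega, h3⟩
    · refine ⟨j, hij, by omega, y (j + 1), hadj j (by omega), ?_⟩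
      tauto

theorem geo {X : Type u} (Γ : SimpleGraph X) (hc : Γ.Connected) (x y : X) :
    ∃ f : ℕ → X, f 0 = x ∧ f (Γ.dist x y) = y ∧ (∀ i < Γ.dist x y, Γ.Adj (f i) (f (i + 1))) ∧
      ∀ i j, i ≤ j → j ≤ Γ.dist x y → Γ.dist (f i) (f j) = j - i := by
  obtain ⟨p, hp⟩ := hc.exists_walk_length_eq_dist x y
  have hadj : ∀ i < Γ.dist x y, Γ.Adj (p.getVert i) (p.getVert (i + 1)) := fun i hi =>
    p.adj_getVert_succ (by omega)
  have h0 : p.getVert 0 = x := p.getVert_zero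
  have hL : p.getVert (Γ.dist x y) = y := by rw [← hp]; exact p.getVert_length
  have up : ∀ i j, i ≤ j → j ≤ Γ.dist x y → Γ.dist (p.getVert i) (p.getVert j) ≤ j - i := by
    intro i j hij
    induction j, hij using Nat.le_induction with
    | base => intro _; simp
    | succ j hij ih =>
      intro hj
      have h1 := ih (by omega)
      have h2 := hc.dist_triangle (u := p.getVert i) (v := p.getVert j) (w := p.getVert (j + 1))
      have h3 : Γ.dist (p.getVert j) (p.getVert (j + 1)) = 1 :=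
        SimpleGraph.dist_eq_one_iff_adj.2 (hadj j (by omega))
      omega
  refine ⟨p.getVert, h0, hL, hadj, fun i j hij hj => ?_⟩
  have h1 := up i j hij hj
  have h2 := up 0 i (by omega) (by omega)
  have h3 := up j (Γ.dist x y) hj le_rfl
  have h4 := hc.dist_triangle (u := p.getVert 0) (v := p.getVert i) (w := p.getVert j)
  have h5 := hc.dist_triangle (u := p.getVert 0) (v := p.getVert j)
    (w := p.getVert (Γ.dist x y))
  have h6 : Γ.dist (p.getVert 0) (p.getVert (Γ.dist x y)) = Γ.dist x y := by rw [h0, hL]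
  omega

/-- The selection of a segment. -/
theorem segment {X : Type u} (Γ : SimpleGraph X) (hc : Γ.Connected) (K M : ℕ) (x y : X)
    (P : Set X → Prop)
    (hM : ∀ (m : ℕ) (D : Fin m → Set X), (∀ i, P (D i)) →
      (∀ i, (x ∈ D i ∧ y ∉ D i) ∨ (x ∉ D i ∧ y ∈ D i)) →
      (∀ i j, i ≠ j → Disjoint (fbG Γ (D i)) (fbG Γ (D j))) → m ≤ M)
    (hP : ∀ D, P D → ∀ u ∈ fbG Γ D, ∀ v ∈ fbG Γ D, Γ.dist u v ≤ K) :
    ∃ a b : X, Γ.dist x y ≤ (M + 1) * (Γ.dist a b + 1) ∧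
      ∀ D : Set X, P D → ((a ∈ D ∧ b ∉ D) ∨ (a ∉ D ∧ b ∈ D)) →
        ∃ v ∈ fbG Γ D, Γ.dist a v ≤ 2 * K ∨ Γ.dist b v ≤ 2 * K := by
  classical
  obtain ⟨f, h0, hL, hadj, hd⟩ := geo Γ hc x y
  set L := Γ.dist x y with hLdef
  obtain ⟨N1, hN, hN'⟩ : ∃ N1 : ℕ, (M + 1) * N1 ≤ L ∧ L < (M + 1) * (N1 + 1) :=
    ⟨L / (M + 1), Nat.mul_div_le L (M + 1), Nat.lt_mul_div_succ L (Nat.succ_pos M)⟩
  by_contra hcon
  push Not at hcon
  have seg : ∀ k : Fin (M + 1), (k : ℕ) * N1 + N1 ≤ L := by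
    intro k
    have h1 : ((k : ℕ) + 1) * N1 ≤ (M + 1) * N1 := Nat.mul_le_mul_right _ (by omega)
    have h2 : ((k : ℕ) + 1) * N1 = (k : ℕ) * N1 + N1 := by ring
    omega
  have hseg : ∀ k : Fin (M + 1), ∃ D : Set X, P D ∧
      ((f (k * N1) ∈ D ∧ f (k * N1 + N1) ∉ D) ∨ (f (k * N1) ∉ D ∧ f (k * N1 + N1) ∈ D)) ∧
      ∀ v ∈ fbG Γ D, 2 * K < Γ.dist (f (k * N1)) v ∧ 2 * K < Γ.dist (f (k * N1 + N1)) v := by
    intro k
    have h1 : Γ.dist (f (k * N1)) (f (k * N1 + N1)) = N1 := by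
      rw [hd _ _ (by omega) (seg k)]; omega
    obtain ⟨D, h2, h3, h4⟩ := hcon (f (k * N1)) (f (k * N1 + N1)) (by rw [h1]; omega)
    exact ⟨D, h2, h3, h4⟩
  choose D hPD hsep hfar using hseg
  -- a crossing inside the segment
  have hin : ∀ k : Fin (M + 1), ∃ t, k * N1 + 2 * K < t ∧ t + 2 * K < k * N1 + N1 ∧
      f t ∈ fbG Γ (D k) := by
    intro k
    obtain ⟨t, h1, h2, h3⟩ := cross Γ f L hadj (D k) (k * N1) (k * N1 + N1) (by omega) (seg k)
      (hsep k)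
    obtain ⟨h4, h5⟩ := hfar k _ h3
    have sk := seg k
    rw [hd _ _ h1 (by omega)] at h4
    rw [SimpleGraph.dist_comm, hd _ _ h2 sk] at h5
    exact ⟨t, by omega, by omega, h3⟩
  choose t ht1 ht2 ht3 using hin
  have := hM (M + 1) D hPD (fun k => ?_) (fun k l hkl => ?_)
  · omega
  · -- the set separates `x` and `y`
    by_contra hns
    have sk := seg k
    have h1 : ((f 0 ∈ D k ∧ f (k * N1) ∉ D k) ∨ (f 0 ∉ D k ∧ f (k * N1) ∈ D k)) ∨
        ((f (k * N1 + N1) ∈ D k ∧ f L ∉ D k) ∨ (f (k * N1 + N1) ∉ D k ∧ f L ∈ D k)) := by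
      rw [h0, hL]
      have := hsep k
      tauto
    rcases h1 with h1 | h1
    · obtain ⟨s, -, hs2, hs3⟩ := cross Γ f L hadj (D k) 0 (k * N1) (by omega) (by omega) h1
      have h2 := hP _ (hPD k) _ hs3 _ (ht3 k)
      have h3 := ht1 k
      have h4 := ht2 k
      rw [hd _ _ (by omega) (by omega)] at h2
      omega
    · obtain ⟨s, hs1, hs2, hs3⟩ := cross Γ f L hadj (D k) (k * N1 + N1) L (by omega) le_rfl h1
      have h2 := hP _ (hPD k) _ (ht3 k) _ hs3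
      have h3 := ht1 k
      have h4 := ht2 k
      rw [hd _ _ (by omega) (by omega)] at h2
      omega
  · -- disjointness
    have key : ∀ k l : Fin (M + 1), (k : ℕ) < l → Disjoint (fbG Γ (D k)) (fbG Γ (D l)) := by
      intro k l hkl
      rw [Set.disjoint_left]
      intro v hv1 hv2
      have h1 := hP _ (hPD k) _ (ht3 k) _ hv1
      have h2 := hP _ (hPD l) _ hv2 _ (ht3 l)
      have h3 := hc.dist_triangle (u := f (t k)) (v := v) (w := f (t l))
      have h4 := ht1 l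
      have h5 := ht2 k
      have h6 := ht2 l
      have sl := seg l
      have h7 : (k : ℕ) * N1 + N1 ≤ (l : ℕ) * N1 := by
        have : ((k : ℕ) + 1) * N1 ≤ (l : ℕ) * N1 := Nat.mul_le_mul_right _ (by omega)
        have h8 : ((k : ℕ) + 1) * N1 = (k : ℕ) * N1 + N1 := by ring
        omega
      rw [hd _ _ (by omega) (by omega)] at h3
      omega
    rcases lt_or_gt_of_ne (fun h => hkl (Fin.ext h) : (k : ℕ) ≠ l) with h | h
    · exact key k l h
    · exact (key l k h).symm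


open Vale.Agent.P192 Vale.Agent.P192.H437 Vale.Agent.P192.R2.H577 Vale.Agent.P192.R2.H360.R

universe v

theorem fb_eq {G : Type v} {X : Type u} [Group G] [MulAction G X] (S : Set G) (D : Set X) :
    fb S D = fbG (sch S X) D := by
  ext z
  constructor
  · rintro ⟨s, hs, h⟩
    refine ⟨s • z, ⟨?_, s, hs, rfl⟩, h⟩
    intro e
    rw [← e] at h
    tauto
  · rintro ⟨z', ⟨-, s, hs, rfl⟩, h⟩
    exact ⟨s, hs, h⟩

theorem r5a (hR2 : R2.{u, v}) : R5a.{u, v} := by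
  intro G _ _ hG S hS K
  obtain ⟨M, hM⟩ := hR2 G hG S hS K
  refine ⟨M + 1, ?_⟩
  intro X _ _ x y
  have : Nonempty X := ⟨x⟩
  have hc : (sch S X).Connected := sch_connected hS
  obtain ⟨a, b, h1, h2⟩ := segment (sch S X) hc K M x y
    (fun D => (fb S D).encard ≤ K ∧ ∀ u ∈ fb S D, ∀ v ∈ fb S D, hop S K u v)
    (fun m D hD hsep hdisj => hM X x y m D hsep (fun i => (hD i).1)
      (fun i j hij => by rw [fb_eq, fb_eq]; exact hdisj i j hij))
    (fun D hD u hu v hv => (hop_iff hc).1 (hD.2 u (by rw [fb_eq]; exact hu) v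
      (by rw [fb_eq]; exact hv)))
  refine ⟨a, b, h1, fun D hD1 hD2 hsep => ?_⟩
  obtain ⟨v, hv, h3⟩ := h2 D ⟨hD1, hD2⟩ hsep
  refine ⟨v, by rw [fb_eq]; exact hv, ?_⟩
  rw [hop_iff hc, hop_iff hc]
  exact h3

end Vale.Agent.P192.R2.H342
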